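import Vale.Agent.P231C.Main

/-!
# P231: the Blaschke conjecture for the complex projective model
-/

namespace Vale.Agent.Results.P231.Complex

open scoped ContDiff Bundle Manifold
open MeasureTheory Vale.Agent.P234 Vale.Agent.P231

/-- Let `M` be a compact smooth Riemannian manifold of dimension `n ≥ 1` and diameter `D` whose
exponential maps are injective on the open balls of radius `D`. Then all points at distance `D`
along geodesics are conjugate of one multiplicity `k`. If `k = 1` and `n ≥ 3` (the model is a
complex projective space) then `M` is isometric, after scaling, to a compact rank one symmetric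
space. For every `k` the volume of `M` is at least the volume of the model with the data
`(n, k, D)`, and if it is at most this volume the same conclusion holds. -/
theorem result {E : Type*} [NormedAddCommGroup E] [NormedSpace ℝ E] [FiniteDimensional ℝ E]
    {M : Type*} [MetricSpace M] [ChartedSpace E M]
    [Bundle.RiemannianBundle fun x : M => TangentSpace 𝓘(ℝ, E) x] [IsManifold 𝓘(ℝ, E) ∞ M]
    [IsContMDiffRiemannianBundle 𝓘(ℝ, E) ∞ E fun x : M => TangentSpace 𝓘(ℝ, E) x]
    [IsRiemannianManifold 𝓘(ℝ, E) M] [CompactSpace M] [Nonempty M]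
    [MeasurableSpace M] [BorelSpace M] (hn : 0 < Module.finrank ℝ E) (hB : IsBlaschke E M) :
    (∀ (x : M) (v : TangentSpace 𝓘(ℝ, E) x), ∃! γ : ℝ → M, IsGeodesicFrom E x v γ) ∧
    ∃ k : ℕ,
      (∀ (x : M) (v : TangentSpace 𝓘(ℝ, E) x), ‖v‖ = Metric.diam (Set.univ : Set M) →
        conjMult E x v = k ∧ expMap E x (-v) = expMap E x v) ∧
      (k = 1 → 3 ≤ Module.finrank ℝ E → IsCROSS M) ∧
      ENNReal.ofReal (modelVolume (Module.finrank ℝ E) k (Metric.diam (Set.univ : Set M))) ≤
        μHE[Module.finrank ℝ E] (Set.univ : Set M) ∧
      (μHE[Module.finrank ℝ E] (Set.univ : Set M) ≤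
          ENNReal.ofReal (modelVolume (Module.finrank ℝ E) k (Metric.diam (Set.univ : Set M))) →
        IsCROSS M) :=
  ⟨villani.1, P231C.blaschke_one hn hB⟩

end Vale.Agent.Results.P231.Complex
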