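import Vale.Agent.P231.Main

/-!
# P231: sharp volume inequality and rigidity for Blaschke manifolds
-/

namespace Vale.Agent.Results.P231.Volume

open scoped ContDiff Bundle Manifold
open MeasureTheory Vale.Agent.P234 Vale.Agent.P231

/-- Let `M` be a compact smooth Riemannian manifold of dimension `n ≥ 1` and diameter `D` whose
exponential maps are injective on the open balls of radius `D`. Then all points at distance `D`
along geodesics are conjugate of one multiplicity `k`, the volume of `M` is at least the volume
of the model with the data `(n, k, D)`, and if it is at most this volume then `M` is a globally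
symmetric space. -/
theorem result {E : Type*} [NormedAddCommGroup E] [NormedSpace ℝ E] [FiniteDimensional ℝ E]
    {M : Type*} [MetricSpace M] [ChartedSpace E M]
    [Bundle.RiemannianBundle fun x : M => TangentSpace 𝓘(ℝ, E) x] [IsManifold 𝓘(ℝ, E) ∞ M]
    [IsContMDiffRiemannianBundle 𝓘(ℝ, E) ∞ E fun x : M => TangentSpace 𝓘(ℝ, E) x]
    [IsRiemannianManifold 𝓘(ℝ, E) M] [CompactSpace M] [Nonempty M]
    [MeasurableSpace M] [BorelSpace M] (hn : 0 < Module.finrank ℝ E) (hB : IsBlaschke E M) :
    (∀ (x : M) (v : TangentSpace 𝓘(ℝ, E) x), ∃! γ : ℝ → M, IsGeodesicFrom E x v γ) ∧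
    ∃ k : ℕ,
      (∀ (x : M) (v : TangentSpace 𝓘(ℝ, E) x), ‖v‖ = Metric.diam (Set.univ : Set M) →
        conjMult E x v = k ∧ expMap E x (-v) = expMap E x v) ∧
      ENNReal.ofReal (modelVolume (Module.finrank ℝ E) k (Metric.diam (Set.univ : Set M))) ≤
        μHE[Module.finrank ℝ E] (Set.univ : Set M) ∧
      (μHE[Module.finrank ℝ E] (Set.univ : Set M) ≤
          ENNReal.ofReal (modelVolume (Module.finrank ℝ E) k (Metric.diam (Set.univ : Set M))) →
        IsSymmetricSpace E M) :=
  ⟨villani.1, blaschke hn hB⟩

end Vale.Agent.Results.P231.Volume
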